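import Crest.Agent.SFC.Grp

/-!
# Row 323, module II-B: solutions, heights
-/

set_option autoImplicit false

namespace Crest.Agent.SFC

/-- positive coprime solutions of `u^2 + 5 D^2 = v^2`, `v^2 + 5 D^2 = w^2` -/
def Sol (D u v w : ℕ) : Prop :=
  0 < D ∧ 0 < u ∧ 0 < v ∧ 0 < w ∧ u ^ 2 + 5 * D ^ 2 = v ^ 2 ∧ v ^ 2 + 5 * D ^ 2 = w ^ 2 ∧
    Nat.Coprime D v

/-- denominator of a rational point -/
def vv (Q : Cv ℚ) : ℕ := Q.S.den

/-- absolute value of the numerator of a rational point -/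
def DD (Q : Cv ℚ) : ℕ := Q.S.num.natAbs

end Crest.Agent.SFC
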