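import Crest.Agent.SFC.Defs
import Crest.Agent.SF.DescA

/-!
# Row 323, module II-B: the 2-descent over `ℕ` (pure number theory)
-/

set_option autoImplicit false

namespace Crest.Agent.SFC

/-- THE DESCENT.  PROOF.  `v` is odd and `D` even (mod 4), `5 ∤ v`.  `D = 2 D₁`, `a = (w+u)/2`,
`b = (w-u)/2`: `a² + b² = v²`, `a b = 10 D₁²`, `gcd(a,b) = 1`, so by the classification of
primitive Pythagorean triples (`PythagoreanTriple.coprime_classification'`) `v = m² + n²`,
`{a,b} = {m² - n², 2mn}`, `m > n > 0` coprime of opposite parity, and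
`m n (m-n) (m+n) = 5 D₁²` with pairwise coprime factors.  Hence three of the factors are squares and
one is `5` times a square:
(1) `n = 5s², m = r², m-n = t², m+n = q²`: first alternative (`Sol s t r q`).
(2) `m = 5r², n = s², m-n = t², m+n = q²`: second alternative.
(3) `m-n = 5t²`, (4) `m+n = 5q²`: impossible mod 5 (2 is not a square mod 5). -/
theorem desc {D u v w : ℕ} (h : Sol D u v w) :
    (∃ s t r q : ℕ, Sol s t r q ∧ v = r ^ 4 + 25 * s ^ 4 ∧ D = 2 * r * s * t * q) ∨
    (∃ r s t q : ℕ, 0 < r ∧ 0 < s ∧ 0 < t ∧ 0 < q ∧ t ^ 2 + s ^ 2 = 5 * r ^ 2 ∧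
      q ^ 2 = 5 * r ^ 2 + s ^ 2 ∧ v = 25 * r ^ 4 + s ^ 4 ∧ D = 2 * r * s * t * q) := by
  obtain ⟨hD, hu, hv, hw, h1, h2, hc⟩ := h
  rcases SF.descent_nat hD h1 h2 hc with
    ⟨s, t, r, q, hs, hr, hsr, f1, f2, f3, f4⟩ | ⟨s, t, r, q, hs, hr, f1, f2, f3, f4⟩
  · left
    have ht : 0 < t := by
      rcases Nat.eq_zero_or_pos t with rfl | h
      · simp at f3; omega
      · exact h
    have hq : 0 < q := by
      rcases Nat.eq_zero_or_pos q with rfl | h
      · simp at f3; omega
      · exact h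
    exact ⟨s, t, r, q, ⟨hs, ht, hr, hq, f1, f2, hsr⟩, f4, by rw [f3]; ring⟩
  · right
    have ht : 0 < t := by
      rcases Nat.eq_zero_or_pos t with rfl | h
      · simp at f3; omega
      · exact h
    have hq : 0 < q := by
      rcases Nat.eq_zero_or_pos q with rfl | h
      · simp at f3; omega
      · exact h
    exact ⟨r, s, t, q, hr, hs, ht, hq, f1, f2.symm, f4, by rw [f3]; ring⟩

end Crest.Agent.SFC
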