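import Crest.Agent.SFC.Defs

/-!
# Row 323, module II-B: heights of sums
-/

set_option autoImplicit false

namespace Crest.Agent.SFC

private theorem int_of_sq {x : ℚ} {n : ℤ} (h : x ^ 2 = n) : ∃ m : ℤ, x = m ∧ m ^ 2 = n := by
  have h1 : (x ^ 2).den = 1 := by rw [h]; rfl
  rw [Rat.den_pow] at h1
  have h2 : x.den = 1 := by
    have := Nat.pow_eq_one.1 h1
    omega
  have h3 := (Rat.den_eq_one_iff x).1 h2
  refine ⟨x.num, h3.symm, ?_⟩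
  rw [← h3] at h
  exact_mod_cast h

/-- integral representation of a rational point.  PROOF.  `(c v)² = v² - 5 D²` is an integer, so `c v`
is an integer (`x : ℚ` with `x²` an integer is an integer: `Rat.den_pow`); same for `d`. -/
theorem int_rep (Q : Cv ℚ) : ∃ u w : ℤ, Q.c = u / (vv Q : ℚ) ∧ Q.d = w / (vv Q : ℚ) ∧
    u ^ 2 + 5 * Q.S.num ^ 2 = (vv Q : ℤ) ^ 2 ∧ (vv Q : ℤ) ^ 2 + 5 * Q.S.num ^ 2 = w ^ 2 ∧
    IsCoprime Q.S.num (vv Q : ℤ) := by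
  have hv : (vv Q : ℚ) ≠ 0 := by
    unfold vv
    exact_mod_cast Q.S.den_pos.ne'
  have hS : Q.S = Q.S.num / (vv Q : ℚ) := (Rat.num_div_den Q.S).symm
  have hc := Q.hc
  have hd := Q.hd
  have e1 : (Q.c * vv Q) ^ 2 = (((vv Q : ℤ) ^ 2 - 5 * Q.S.num ^ 2 : ℤ) : ℚ) := by
    rw [mul_pow, hc]
    conv_lhs => rw [hS]
    push_cast
    field_simp
  have e2 : (Q.d * vv Q) ^ 2 = (((vv Q : ℤ) ^ 2 + 5 * Q.S.num ^ 2 : ℤ) : ℚ) := by
    rw [mul_pow, hd]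
    conv_lhs => rw [hS]
    push_cast
    field_simp
  obtain ⟨u, hu1, hu2⟩ := int_of_sq e1
  obtain ⟨w, hw1, hw2⟩ := int_of_sq e2
  refine ⟨u, w, ?_, ?_, by linarith, by linarith, ?_⟩
  · rw [← hu1, mul_div_cancel_right₀ _ hv]
  · rw [← hw1, mul_div_cancel_right₀ _ hv]
  · have h1 : Nat.Coprime Q.S.num.natAbs Q.S.den := Q.S.reduced
    rw [Int.isCoprime_iff_gcd_eq_one]
    exact h1

private theorem coprime_or_dvd' {p : ℤ} (hp : Prime p) (x : ℤ) : IsCoprime p x ∨ p ∣ x :=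
  by
    rcases em (p ∣ x) with h | h
    · exact Or.inr h
    · exact Or.inl ((Prime.coprime_iff_not_dvd hp).2 h)

/-- PROOF: if `D` is odd then `v² + D² ≡ u² + 2 D² ...`: mod 4 `u² + 1 = v²`, `v² + 1 = w²` is
impossible; `5 ∣ v → 5 ∣ u → 25 ∣ 5 D²`. -/
theorem parity {D u v w : ℤ} (h1 : u ^ 2 + 5 * D ^ 2 = v ^ 2) (h2 : v ^ 2 + 5 * D ^ 2 = w ^ 2)
    (hc : IsCoprime D v) : Even D ∧ Odd v ∧ IsCoprime v 5 := by
  have hD : Even D := by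
    by_contra hcon
    obtain ⟨a, ha⟩ := Int.not_even_iff_odd.1 hcon
    have hw2 : w ^ 2 % 4 = 0 ∨ w ^ 2 % 4 = 1 := by
      rcases Int.even_or_odd' w with ⟨b, hb | hb⟩
      · left; rw [hb]; ring_nf; omega
      · right; rw [hb]; ring_nf; omega
    have hu2 : u ^ 2 % 4 = 0 ∨ u ^ 2 % 4 = 1 := by
      rcases Int.even_or_odd' u with ⟨b, hb | hb⟩
      · left; rw [hb]; ring_nf; omega
      · right; rw [hb]; ring_nf; omega
    have hD2 : D ^ 2 % 4 = 1 := by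
      rw [ha]; ring_nf; omega
    rcases Int.even_or_odd' v with ⟨b, hb | hb⟩
    · have hv2 : v ^ 2 % 4 = 0 := by rw [hb]; ring_nf; omega
      omega
    · have hv2 : v ^ 2 % 4 = 1 := by rw [hb]; ring_nf; omega
      omega
  have hv : Odd v := by
    by_contra hcon
    have hev := Int.not_odd_iff_even.1 hcon
    have h3 : IsUnit (2 : ℤ) := hc.isUnit_of_dvd' hD.two_dvd hev.two_dvd
    rw [Int.isUnit_iff] at h3
    omega
  refine ⟨hD, hv, ?_⟩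
  have hp : Prime (5 : ℤ) := by norm_num
  rcases coprime_or_dvd' hp v with h | h
  · exact h.symm
  · exfalso
    have hu : (5 : ℤ) ∣ u := by
      have : (5 : ℤ) ∣ u ^ 2 := by
        have e : u ^ 2 = v ^ 2 - 5 * D ^ 2 := by linarith
        rw [e]
        exact Dvd.dvd.sub (Dvd.dvd.pow h (by norm_num)) (dvd_mul_right _ _)
      exact hp.dvd_of_dvd_pow this
    obtain ⟨a, ha⟩ := h
    obtain ⟨b, hb⟩ := hu
    have hD5 : (5 : ℤ) ∣ D := by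
      have : (5 : ℤ) ∣ D ^ 2 := ⟨a ^ 2 - b ^ 2, by
        rw [ha, hb] at h1
        linarith⟩
      exact hp.dvd_of_dvd_pow this
    have h3 : IsUnit (5 : ℤ) := hc.isUnit_of_dvd' hD5 ⟨a, ha⟩
    rw [Int.isUnit_iff] at h3
    omega

private theorem cop_aux {x v D e : ℤ} (hx : x ^ 2 = v ^ 2 + e * (5 * D ^ 2)) (hD : Even D)
    (hv : Odd v) (h5 : IsCoprime v 5) (hc : IsCoprime D v) : IsCoprime x (50 * D ^ 4) := by
  have hxD : IsCoprime x D := by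
    have h1 : IsCoprime D (x ^ 2) := by
      have h2 : IsCoprime D (v ^ 2) := hc.pow_right
      have e1 : x ^ 2 = v ^ 2 + D * (e * 5 * D) := by rw [hx]; ring
      rw [e1]
      exact h2.add_mul_left_right _
    exact ((IsCoprime.pow_right_iff (by norm_num)).1 h1).symm
  have hx5 : IsCoprime x 5 := by
    have h1 : IsCoprime 5 (x ^ 2) := by
      have h2 : IsCoprime 5 (v ^ 2) := h5.symm.pow_right
      have e1 : x ^ 2 = v ^ 2 + 5 * (e * D ^ 2) := by rw [hx]; ring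
      rw [e1]
      exact h2.add_mul_left_right _
    exact ((IsCoprime.pow_right_iff (by norm_num)).1 h1).symm
  have hv2 : IsCoprime 2 v := by
    rcases coprime_or_dvd' Int.prime_two v with h | h
    · exact h
    · exfalso
      rcases hv with ⟨k, hk⟩
      omega
  have hx2 : IsCoprime x 2 := by
    obtain ⟨k, hk⟩ := hD.two_dvd
    have h1 : IsCoprime 2 (x ^ 2) := by
      have h2 : IsCoprime 2 (v ^ 2) := hv2.pow_right
      have e1 : x ^ 2 = v ^ 2 + 2 * (e * 5 * k * D) := by rw [hx, hk]; ring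
      rw [e1]
      exact h2.add_mul_left_right _
    exact ((IsCoprime.pow_right_iff (by norm_num)).1 h1).symm
  have h50 : (50 : ℤ) * D ^ 4 = 2 * 5 * 5 * D ^ 4 := by ring
  rw [h50]
  exact (((hx2.mul_right hx5).mul_right hx5).mul_right hxD.pow_right)

/-- (V1) PROOF.  `2Q = (2 D v u w / N, ...)` with `N = v⁴ + 25 D⁴` (by `Cv.add_S`), and
`gcd(2 D v u w, N) = 1`: `N` is odd; `N ≡ v⁴ mod D`; `N ≡ 25 D⁴ mod v`, `5 ∤ v`;
`N = u² w² + 50 D⁴`, and `u`, `w` are prime to `2, 5, D`. -/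
theorem vv_double (Q : Cv ℚ) : vv (Q + Q) = vv Q ^ 4 + 25 * DD Q ^ 4 := by
  obtain ⟨u, w, hcu, hdw, h1, h2, h3⟩ := int_rep Q
  obtain ⟨hD, hv, h5⟩ := parity h1 h2 h3
  have hS : Q.S = Q.S.num / (vv Q : ℚ) := (Rat.num_div_den Q.S).symm
  have hvp : 0 < vv Q := Q.S.den_pos
  have hDD : (DD Q : ℤ) ^ 4 = Q.S.num ^ 4 := by
    unfold DD
    have : ((Q.S.num.natAbs : ℕ) : ℤ) ^ 2 = Q.S.num ^ 2 := Int.natAbs_sq _
    calc ((Q.S.num.natAbs : ℕ) : ℤ) ^ 4 = (((Q.S.num.natAbs : ℕ) : ℤ) ^ 2) ^ 2 := by ring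
      _ = (Q.S.num ^ 2) ^ 2 := by rw [this]
      _ = Q.S.num ^ 4 := by ring
  have hNpos : (0 : ℤ) < (vv Q : ℤ) ^ 4 + 25 * Q.S.num ^ 4 := by positivity
  have hS2 : (Q + Q).S = ((2 * Q.S.num * (vv Q : ℤ) * u * w : ℤ) : ℚ) /
      (((vv Q : ℤ) ^ 4 + 25 * Q.S.num ^ 4 : ℤ) : ℚ) := by
    rw [Cv.add_S, hcu, hdw]
    have hv0 : (vv Q : ℚ) ≠ 0 := by exact_mod_cast hvp.ne'
    have hN' : (((vv Q : ℤ) ^ 4 + 25 * Q.S.num ^ 4 : ℤ) : ℚ) ≠ 0 := by exact_mod_cast hNpos.ne'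
    generalize hn1 : Q.S.num = D1 at *
    rw [hS]
    rw [div_eq_div_iff (Cv.den_pos _ _).ne' hN']
    push_cast
    field_simp
    ring
  have hcop : IsCoprime (2 * Q.S.num * (vv Q : ℤ) * u * w)
      ((vv Q : ℤ) ^ 4 + 25 * Q.S.num ^ 4) := by
    generalize Q.S.num = D at *
    generalize (vv Q : ℤ) = v at *
    have c2 : IsCoprime 2 (v ^ 4 + 25 * D ^ 4) := by
      rcases coprime_or_dvd' Int.prime_two (v ^ 4 + 25 * D ^ 4) with h | h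
      · exact h
      · exfalso
        have ho : Odd (v ^ 4) := hv.pow
        have he : Even (25 * D ^ 4) := (hD.pow_of_ne_zero (by norm_num)).mul_left _
        have hoo : Odd (v ^ 4 + 25 * D ^ 4) := ho.add_even he
        rcases hoo with ⟨k, hk⟩
        omega
    have cD : IsCoprime D (v ^ 4 + 25 * D ^ 4) := by
      have e : v ^ 4 + 25 * D ^ 4 = v ^ 4 + D * (25 * D ^ 3) := by ring
      rw [e]
      exact (h3.pow_right (n := 4)).add_mul_left_right _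
    have cv : IsCoprime v (v ^ 4 + 25 * D ^ 4) := by
      have e : v ^ 4 + 25 * D ^ 4 = 5 * 5 * D ^ 4 + v * (v ^ 3) := by ring
      rw [e]
      exact ((h5.mul_right h5).mul_right (h3.symm.pow_right (n := 4))).add_mul_left_right _
    have eN : v ^ 4 + 25 * D ^ 4 = u ^ 2 * w ^ 2 + 50 * D ^ 4 := by
      linear_combination (-w ^ 2) * h1 + (v ^ 2 - 5 * D ^ 2) * h2
    have cu : IsCoprime u (v ^ 4 + 25 * D ^ 4) := by
      have e : v ^ 4 + 25 * D ^ 4 = 50 * D ^ 4 + u * (u * w ^ 2) := by rw [eN]; ring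
      rw [e]
      exact (cop_aux (e := -1) (by linarith) hD hv h5 h3).add_mul_left_right _
    have cw : IsCoprime w (v ^ 4 + 25 * D ^ 4) := by
      have e : v ^ 4 + 25 * D ^ 4 = 50 * D ^ 4 + w * (w * u ^ 2) := by rw [eN]; ring
      rw [e]
      exact (cop_aux (e := 1) (by linarith) hD hv h5 h3).add_mul_left_right _
    exact (((c2.mul_left cD).mul_left cv).mul_left cu).mul_left cw
  have hden := Rat.den_div_eq_of_coprime hNpos (Int.isCoprime_iff_gcd_eq_one.1 hcop)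
  have : ((vv (Q + Q) : ℕ) : ℤ) = (vv Q : ℤ) ^ 4 + 25 * (DD Q : ℤ) ^ 4 := by
    rw [hDD, ← hden, ← hS2]
    rfl
  exact_mod_cast this

private theorem den_aux (A : ℤ) {Z : ℤ} (hZ : 0 < Z) : ∃ g : ℤ, 0 < g ∧
    Z = (((A : ℚ) / (Z : ℚ)).den : ℤ) * g ∧ A = ((A : ℚ) / (Z : ℚ)).num * g := by
  set x : ℚ := (A : ℚ) / (Z : ℚ) with hx
  have hZ' : (Z : ℚ) ≠ 0 := by exact_mod_cast hZ.ne'
  have hdvd : (x.den : ℤ) ∣ Z := by
    rw [hx, ← Rat.divInt_eq_div]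
    exact Rat.den_dvd _ _
  obtain ⟨g, hg⟩ := hdvd
  have hdp : (0 : ℤ) < x.den := by exact_mod_cast x.den_pos
  have hgp : 0 < g := by
    rw [hg] at hZ
    exact (mul_pos_iff_of_pos_left hdp).1 hZ
  refine ⟨g, hgp, hg, ?_⟩
  have h1 : (A : ℚ) = x * Z := by rw [hx, div_mul_cancel₀ _ hZ']
  have h2 : (A : ℚ) = x.num * g := by
    rw [h1]
    conv_lhs => rw [← Rat.num_div_den x]
    rw [hg]
    have hd0 : (x.den : ℚ) ≠ 0 := by exact_mod_cast x.den_pos.ne'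
    push_cast
    field_simp
  exact_mod_cast h2

private theorem den_mul_dvd {A B Z : ℤ} (hZ : 0 < Z) (h : Z ∣ A * B) :
    (((A : ℚ) / (Z : ℚ)).den : ℤ) * (((B : ℚ) / (Z : ℚ)).den : ℤ) ∣ Z := by
  obtain ⟨g, hg, e1, e2⟩ := den_aux A hZ
  obtain ⟨g', hg', e1', e2'⟩ := den_aux B hZ
  have hcA : Nat.Coprime ((A : ℚ) / (Z : ℚ)).num.natAbs ((A : ℚ) / (Z : ℚ)).den :=
    Rat.reduced _
  have hcB : Nat.Coprime ((B : ℚ) / (Z : ℚ)).num.natAbs ((B : ℚ) / (Z : ℚ)).den :=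
    Rat.reduced _
  generalize ((A : ℚ) / (Z : ℚ)).num = n at *
  generalize ((A : ℚ) / (Z : ℚ)).den = d at *
  generalize ((B : ℚ) / (Z : ℚ)).num = n' at *
  generalize ((B : ℚ) / (Z : ℚ)).den = d' at *
  have k1 : (Int.gcd Z A : ℤ) = g := by
    rw [e1, e2, Int.gcd_mul_right]
    have : Int.gcd (d : ℤ) n = 1 := by
      rw [Int.gcd_comm]
      exact hcA
    rw [this, one_mul]
    exact Int.natAbs_of_nonneg hg.le
  have k2 : (Int.gcd Z B : ℤ) = g' := by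
    rw [e1', e2', Int.gcd_mul_right]
    have : Int.gcd (d' : ℤ) n' = 1 := by
      rw [Int.gcd_comm]
      exact hcB
    rw [this, one_mul]
    exact Int.natAbs_of_nonneg hg'.le
  have h2 := Int.dvd_gcd_mul_gcd_iff_dvd_mul.2 h
  rw [k1, k2] at h2
  obtain ⟨k, hk⟩ := h2
  refine ⟨k, ?_⟩
  have h3 : Z * Z = Z * ((d : ℤ) * (d' : ℤ) * k) := by
    calc Z * Z = ((d : ℤ) * g) * ((d' : ℤ) * g') := by rw [← e1, ← e1']
      _ = (d : ℤ) * d' * (g * g') := by ring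
      _ = (d : ℤ) * d' * (Z * k) := by rw [hk]
      _ = _ := by ring
  exact mul_left_cancel₀ hZ.ne' h3

/-- (V2) PROOF.  With `Z = v₁² v₂² + 25 D₁² D₂²`, `A± = D₁ v₁ u₂ w₂ ± D₂ v₂ u₁ w₁`:
`S(Q ± R) = A± / Z`, `A₊ A₋ = (D₁² v₂² - D₂² v₁²) Z`, so `Z ∣ gcd(A₊, Z) gcd(A₋, Z)`
(`dvd_gcd_mul_gcd_iff_dvd_mul` or similar) and `v± = Z / gcd(A±, Z)`, hence `v₊ v₋ ∣ Z`. -/
theorem vv_add_mul_sub (Q R : Cv ℚ) :
    vv (Q + R) * vv (Q - R) ∣ vv Q ^ 2 * vv R ^ 2 + 25 * DD Q ^ 2 * DD R ^ 2 := by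
  obtain ⟨u1, w1, hc1, hd1, h11, h12, -⟩ := int_rep Q
  obtain ⟨u2, w2, hc2, hd2, h21, h22, -⟩ := int_rep R
  have hS1 : Q.S = Q.S.num / (vv Q : ℚ) := (Rat.num_div_den Q.S).symm
  have hS2 : R.S = R.S.num / (vv R : ℚ) := (Rat.num_div_den R.S).symm
  have hv1 : 0 < vv Q := Q.S.den_pos
  have hv2 : 0 < vv R := R.S.den_pos
  have hv1' : (vv Q : ℚ) ≠ 0 := by exact_mod_cast hv1.ne'
  have hv2' : (vv R : ℚ) ≠ 0 := by exact_mod_cast hv2.ne'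
  have hDD1 : (DD Q : ℤ) ^ 2 = Q.S.num ^ 2 := Int.natAbs_sq _
  have hDD2 : (DD R : ℤ) ^ 2 = R.S.num ^ 2 := Int.natAbs_sq _
  have eP : (Q + R).S = ((Q.S.num * vv Q * u2 * w2 + R.S.num * vv R * u1 * w1 : ℤ) : ℚ) /
      (((vv Q : ℤ) ^ 2 * (vv R : ℤ) ^ 2 + 25 * Q.S.num ^ 2 * R.S.num ^ 2 : ℤ) : ℚ) := by
    rw [Cv.add_S, hc1, hd1, hc2, hd2]
    generalize hn1 : Q.S.num = D1 at *
    generalize hn2 : R.S.num = D2 at *
    rw [hS1, hS2]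
    have hZ' : (((vv Q : ℤ) ^ 2 * (vv R : ℤ) ^ 2 + 25 * D1 ^ 2 * D2 ^ 2 : ℤ) : ℚ) ≠ 0 := by
      have : (0 : ℤ) < (vv Q : ℤ) ^ 2 * (vv R : ℤ) ^ 2 + 25 * D1 ^ 2 * D2 ^ 2 := by positivity
      exact_mod_cast this.ne'
    rw [div_eq_div_iff (Cv.den_pos _ _).ne' hZ']
    push_cast
    field_simp
  have eM : (Q - R).S = ((Q.S.num * vv Q * u2 * w2 - R.S.num * vv R * u1 * w1 : ℤ) : ℚ) /
      (((vv Q : ℤ) ^ 2 * (vv R : ℤ) ^ 2 + 25 * Q.S.num ^ 2 * R.S.num ^ 2 : ℤ) : ℚ) := by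
    rw [sub_eq_add_neg, Cv.add_S, Cv.neg_S, Cv.neg_c, Cv.neg_d, hc1, hd1, hc2, hd2]
    generalize hn1 : Q.S.num = D1 at *
    generalize hn2 : R.S.num = D2 at *
    rw [hS1, hS2]
    have hZ' : (((vv Q : ℤ) ^ 2 * (vv R : ℤ) ^ 2 + 25 * D1 ^ 2 * D2 ^ 2 : ℤ) : ℚ) ≠ 0 := by
      have : (0 : ℤ) < (vv Q : ℤ) ^ 2 * (vv R : ℤ) ^ 2 + 25 * D1 ^ 2 * D2 ^ 2 := by positivity
      exact_mod_cast this.ne'
    rw [div_eq_div_iff (Cv.den_pos _ _).ne' hZ']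
    push_cast
    field_simp
    ring
  have hZ : (0 : ℤ) < (vv Q : ℤ) ^ 2 * (vv R : ℤ) ^ 2 + 25 * Q.S.num ^ 2 * R.S.num ^ 2 := by
    positivity
  have hdvd : ((vv Q : ℤ) ^ 2 * (vv R : ℤ) ^ 2 + 25 * Q.S.num ^ 2 * R.S.num ^ 2) ∣
      (Q.S.num * vv Q * u2 * w2 + R.S.num * vv R * u1 * w1) *
        (Q.S.num * vv Q * u2 * w2 - R.S.num * vv R * u1 * w1) := by
    refine ⟨Q.S.num ^ 2 * (vv R : ℤ) ^ 2 - R.S.num ^ 2 * (vv Q : ℤ) ^ 2, ?_⟩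
    generalize Q.S.num = D1 at *
    generalize R.S.num = D2 at *
    generalize (vv Q : ℤ) = v1 at *
    generalize (vv R : ℤ) = v2 at *
    linear_combination (D1 ^ 2 * v1 ^ 2) * (w2 ^ 2 * h21 - (v2 ^ 2 - 5 * D2 ^ 2) * h22) -
      (D2 ^ 2 * v2 ^ 2) * (w1 ^ 2 * h11 - (v1 ^ 2 - 5 * D1 ^ 2) * h12)
  have key := den_mul_dvd hZ hdvd
  rw [← eP, ← eM] at key
  have : ((vv (Q + R) * vv (Q - R) : ℕ) : ℤ) ∣
      ((vv Q ^ 2 * vv R ^ 2 + 25 * DD Q ^ 2 * DD R ^ 2 : ℕ) : ℤ) := by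
    push_cast
    rw [hDD1, hDD2]
    exact key
  exact_mod_cast this

/-- PROOF: `5 D² ≤ v²`. -/
theorem five_DD_le (Q : Cv ℚ) : 5 * DD Q ^ 2 ≤ vv Q ^ 2 := by
  obtain ⟨u, w, -, -, h1, -, -⟩ := int_rep Q
  have h2 : (DD Q : ℤ) ^ 2 = Q.S.num ^ 2 := Int.natAbs_sq _
  have : (5 : ℤ) * (DD Q : ℤ) ^ 2 ≤ (vv Q : ℤ) ^ 2 := by
    rw [h2]
    nlinarith [sq_nonneg u]
  exact_mod_cast this

end Crest.Agent.SFC
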