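import Crest.Agent.SFC.Real
import Crest.Agent.SFC.Desc
import Crest.Agent.SFC.Height

/-!
# Row 323, module II-B: every rational point is `n P₁ + t`
-/

set_option autoImplicit false

namespace Crest.Agent.SFC

/-- the subgroup `S = 0` -/
def TT : AddSubgroup (Cv ℚ) where
  carrier := {t | t.S = 0}
  zero_mem' := rfl
  add_mem' := by
    intro a b ha hb
    show (a + b).S = 0
    rw [Cv.add_S]
    have ha' : a.S = 0 := ha
    have hb' : b.S = 0 := hb
    simp [ha', hb']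
  neg_mem' := by
    intro a ha
    show (-a).S = 0
    have ha' : a.S = 0 := ha
    simp [ha']

theorem mem_TT {t : Cv ℚ} : t ∈ TT ↔ t.S = 0 := Iff.rfl

theorem sq_add_TT (Q : Cv ℚ) {t : Cv ℚ} (ht : t ∈ TT) : (Q + t).S ^ 2 = Q.S ^ 2 := by
  have h0 : t.S = 0 := ht
  have h1 := t.hc
  have h2 := t.hd
  rw [h0] at h1 h2
  rw [Cv.add_S, h0]
  have e : (Q.S * t.c * t.d + 0 * Q.c * Q.d) / (1 + 25 * Q.S ^ 2 * 0 ^ 2) = Q.S * t.c * t.d := by
    simp
  rw [e]
  linear_combination (Q.S ^ 2 * t.d ^ 2) * h1 + Q.S ^ 2 * h2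

theorem sq_neg (Q : Cv ℚ) : (-Q).S ^ 2 = Q.S ^ 2 := by
  simp

/-- points with the same `S²` -/
theorem eq_of_sq {Q R : Cv ℚ} (h : Q.S ^ 2 = R.S ^ 2) :
    ∃ t ∈ TT, R = Q + t ∨ R = -Q + t := by
  have hc : R.c ^ 2 = Q.c ^ 2 := by rw [R.hc, Q.hc, h]
  have hd : R.d ^ 2 = Q.d ^ 2 := by rw [R.hd, Q.hd, h]
  have hc' : ∃ a : ℚ, a ^ 2 = 1 ∧ R.c = a * Q.c := by
    rcases sq_eq_sq_iff_eq_or_eq_neg.1 hc with h1 | h1
    · exact ⟨1, by norm_num, by rw [h1]; ring⟩
    · exact ⟨-1, by norm_num, by rw [h1]; ring⟩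
  have hd' : ∃ a : ℚ, a ^ 2 = 1 ∧ R.d = a * Q.d := by
    rcases sq_eq_sq_iff_eq_or_eq_neg.1 hd with h1 | h1
    · exact ⟨1, by norm_num, by rw [h1]; ring⟩
    · exact ⟨-1, by norm_num, by rw [h1]; ring⟩
  obtain ⟨a, ha, hca⟩ := hc'
  obtain ⟨b, hb, hdb⟩ := hd'
  let t : Cv ℚ := ⟨0, a, b, by rw [ha]; norm_num, by rw [hb]; norm_num⟩
  have ht : t ∈ TT := rfl
  have key : ∀ X : Cv ℚ, (X + t).S = a * b * X.S ∧ (X + t).c = a * X.c ∧ (X + t).d = b * X.d := by
    intro X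
    refine ⟨?_, ?_, ?_⟩
    · rw [Cv.add_S]
      show (X.S * a * b + 0 * X.c * X.d) / (1 + 25 * X.S ^ 2 * 0 ^ 2) = _
      simp
      ring
    · rw [Cv.add_c]
      show (X.c * a - 5 * X.S * 0 * X.d * b) / (1 + 25 * X.S ^ 2 * 0 ^ 2) = _
      simp
      ring
    · rw [Cv.add_d]
      show (X.d * b + 5 * X.S * 0 * X.c * a) / (1 + 25 * X.S ^ 2 * 0 ^ 2) = _
      simp
      ring
  have hab : (a * b) ^ 2 = 1 := by rw [mul_pow, ha, hb, mul_one]
  have h' : R.S ^ 2 = (a * b * Q.S) ^ 2 := by rw [mul_pow, hab, one_mul, h]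
  refine ⟨t, ht, ?_⟩
  rcases sq_eq_sq_iff_eq_or_eq_neg.1 h' with h1 | h1
  · left
    obtain ⟨k1, k2, k3⟩ := key Q
    ext
    · rw [k1, h1]
    · rw [k2, hca]
    · rw [k3, hdb]
  · right
    obtain ⟨k1, k2, k3⟩ := key (-Q)
    ext
    · rw [k1, h1, Cv.neg_S]; ring
    · rw [k2, hca, Cv.neg_c]
    · rw [k3, hdb, Cv.neg_d]

/-- the subgroup generated by `P₁` and `T` -/
def HH : AddSubgroup (Cv ℚ) := AddSubgroup.zmultiples P1 ⊔ TT

theorem P1_mem : P1 ∈ HH :=
  (le_sup_left : AddSubgroup.zmultiples P1 ≤ HH) (AddSubgroup.mem_zmultiples P1)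

theorem TT_le : TT ≤ HH := le_sup_right

theorem mem_HH {Q : Cv ℚ} (h : Q ∈ HH) : ∃ n : ℤ, ∃ t ∈ TT, Q = n • P1 + t := by
  obtain ⟨a, ha, t, ht, e⟩ := AddSubgroup.mem_sup.1 h
  obtain ⟨n, hn⟩ := AddSubgroup.mem_zmultiples_iff.1 ha
  exact ⟨n, t, ht, by rw [← e, hn]⟩

theorem mem_HH_of_sq {Q R : Cv ℚ} (hQ : Q ∈ HH) (h : Q.S ^ 2 = R.S ^ 2) : R ∈ HH := by
  obtain ⟨t, ht, h1 | h1⟩ := eq_of_sq h
  · rw [h1]
    exact HH.add_mem hQ (TT_le ht)
  · rw [h1]
    exact HH.add_mem (HH.neg_mem hQ) (TT_le ht)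

/-- the point of a solution -/
def ptOf {D u v w : ℕ} (h : Sol D u v w) : Cv ℚ where
  S := D / v
  c := u / v
  d := w / v
  hc := by
    obtain ⟨hD, hu, hv, hw, h1, h2, h3⟩ := h
    have hv' : (v : ℚ) ≠ 0 := by exact_mod_cast hv.ne'
    have h1' : (u : ℚ) ^ 2 + 5 * (D : ℚ) ^ 2 = (v : ℚ) ^ 2 := by exact_mod_cast h1
    field_simp
    linear_combination h1'
  hd := by
    obtain ⟨hD, hu, hv, hw, h1, h2, h3⟩ := h
    have hv' : (v : ℚ) ≠ 0 := by exact_mod_cast hv.ne'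
    have h2' : (v : ℚ) ^ 2 + 5 * (D : ℚ) ^ 2 = (w : ℚ) ^ 2 := by exact_mod_cast h2
    field_simp
    linear_combination -h2'

theorem ptOf_S {D u v w : ℕ} (h : Sol D u v w) : (ptOf h).S = (D : ℚ) / v := rfl

/-- the solution of a rational point -/
theorem sol_of {Q : Cv ℚ} (h : Q.S ≠ 0) : ∃ u w : ℕ, Sol (DD Q) u (vv Q) w ∧
    |Q.c| = u / (vv Q : ℚ) ∧ |Q.d| = w / (vv Q : ℚ) := by
  obtain ⟨u, w, hcu, hdw, h1, h2, h3⟩ := int_rep Q
  obtain ⟨hev, hodd, h5⟩ := parity h1 h2 h3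
  have hv : 0 < vv Q := Q.S.den_pos
  have hD : 0 < DD Q := by
    unfold DD
    exact Int.natAbs_pos.2 (Rat.num_ne_zero.2 h)
  have hvz : (0 : ℤ) < vv Q := by exact_mod_cast hv
  have hu0 : u ≠ 0 := by
    rintro rfl
    have h5' : (5 : ℤ) ∣ (vv Q : ℤ) ^ 2 := ⟨Q.S.num ^ 2, by rw [← h1]; ring⟩
    have h6 : (5 : ℤ) ∣ (vv Q : ℤ) := by
      have : Prime (5 : ℤ) := by norm_num
      exact this.dvd_of_dvd_pow h5'
    have h7 : IsUnit (5 : ℤ) := h5.isUnit_of_dvd' h6 dvd_rfl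
    rw [Int.isUnit_iff] at h7
    omega
  have hw0 : w ≠ 0 := by
    rintro rfl
    nlinarith [sq_nonneg Q.S.num]
  refine ⟨u.natAbs, w.natAbs, ⟨hD, Int.natAbs_pos.2 hu0, hv, Int.natAbs_pos.2 hw0, ?_, ?_, ?_⟩,
    ?_, ?_⟩
  · have : ((u.natAbs : ℤ)) ^ 2 + 5 * ((DD Q : ℕ) : ℤ) ^ 2 = (vv Q : ℤ) ^ 2 := by
      unfold DD
      rw [Int.natAbs_sq, Int.natAbs_sq]
      exact h1
    exact_mod_cast this
  · have : (vv Q : ℤ) ^ 2 + 5 * ((DD Q : ℕ) : ℤ) ^ 2 = ((w.natAbs : ℤ)) ^ 2 := by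
      unfold DD
      rw [Int.natAbs_sq, Int.natAbs_sq]
      exact h2
    exact_mod_cast this
  · exact Q.S.reduced
  · rw [hcu, abs_div, Nat.abs_cast, Nat.cast_natAbs]
    push_cast
    rfl
  · rw [hdw, abs_div, Nat.abs_cast, Nat.cast_natAbs]
    push_cast
    rfl

/-- EVERY SOLUTION IS IN THE GROUP. -/
theorem ptOf_mem : ∀ (v : ℕ) {D u w : ℕ} (h : Sol D u v w), ptOf h ∈ HH := by
  intro v
  induction v using Nat.strong_induction_on with
  | _ v ih =>
    intro D u w h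
    rcases desc h with ⟨s, t, r, q, hs, hv, hD⟩ | ⟨r, s, t, q, hr, hs, ht, hq, h1, h2, hv, hD⟩
    · have hr0 : 0 < r := hs.2.2.1
      have hs0 : 0 < s := hs.1
      have hlt : r < v := by
        rw [hv]
        have h1 : r ≤ r ^ 4 := Nat.le_self_pow (by norm_num) r
        have h2 : 0 < s ^ 4 := by positivity
        omega
      have hm := ih r hlt hs
      refine mem_HH_of_sq (HH.add_mem hm hm) ?_
      have e : (ptOf hs + ptOf hs).S = (ptOf h).S := by
        rw [Cv.add_S]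
        show ((s : ℚ) / r * (t / r) * (q / r) + s / r * (t / r) * (q / r)) /
          (1 + 25 * (s / r) ^ 2 * (s / r) ^ 2) = D / v
        have hr' : (r : ℚ) ≠ 0 := by exact_mod_cast hr0.ne'
        rw [hv, hD]
        push_cast
        have hp : (r : ℚ) ^ 4 + 25 * (s : ℚ) ^ 4 ≠ 0 := by positivity
        rw [div_eq_div_iff (Cv.den_pos _ _).ne' hp]
        field_simp
        ring
      rw [e]
    · have hr' : (r : ℚ) ≠ 0 := by exact_mod_cast hr.ne'
      have ht' : (t : ℚ) ^ 2 = 5 * (r : ℚ) ^ 2 - (s : ℚ) ^ 2 := by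
        have : (t : ℚ) ^ 2 + (s : ℚ) ^ 2 = 5 * (r : ℚ) ^ 2 := by exact_mod_cast h1
        linarith
      have hq' : (q : ℚ) ^ 2 = 5 * (r : ℚ) ^ 2 + (s : ℚ) ^ 2 := by exact_mod_cast h2
      have hQ : ptQ r s t q hr' ht' hq' ∈ HH := by
        by_cases h0 : (ptQ r s t q hr' ht' hq').S = 0
        · exact TT_le h0
        · obtain ⟨u', w', hsol, -, -⟩ := sol_of h0
          have hlt : vv (ptQ r s t q hr' ht' hq') < v := by
            have hdvd : ((vv (ptQ r s t q hr' ht' hq') : ℕ) : ℤ) ∣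
                25 * (r : ℤ) ^ 2 + 4 * (s : ℤ) ^ 2 := by
              have e : (ptQ r s t q hr' ht' hq').S =
                  ((3 * (s : ℤ) * r - 2 * t * q : ℤ) : ℚ) /
                    ((25 * (r : ℤ) ^ 2 + 4 * (s : ℤ) ^ 2 : ℤ) : ℚ) := by
                simp only [ptQ]
                push_cast
                rfl
              unfold vv
              rw [e, ← Rat.divInt_eq_div]
              exact Rat.den_dvd _ _
            have hdvd' : vv (ptQ r s t q hr' ht' hq') ∣ 25 * r ^ 2 + 4 * s ^ 2 := by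
              exact_mod_cast hdvd
            have hle := Nat.le_of_dvd (by positivity) hdvd'
            have hr2 : 2 ≤ r := by
              by_contra hcon
              have hr1 : r = 1 := by omega
              subst hr1
              have hs2 : s ≤ 2 := by nlinarith
              have : s = 1 ∨ s = 2 := by omega
              rcases this with rfl | rfl
              · have : q ^ 2 = 6 := by omega
                have : q ≤ 2 := by nlinarith
                interval_cases q <;> omega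
              · have ht1 : t ^ 2 = 1 := by omega
                have hq3 : q ^ 2 = 9 := by omega
                have : t = 1 := by nlinarith
                have : q = 3 := by nlinarith
                subst t q
                apply h0
                simp only [ptQ]
                norm_num
            have h3 : 25 * r ^ 2 + 4 * s ^ 2 < 25 * r ^ 4 + s ^ 4 := by
              have e1 : (25 : ℤ) * (r : ℤ) ^ 2 + 4 * (s : ℤ) ^ 2 <
                  25 * (r : ℤ) ^ 4 + (s : ℤ) ^ 4 := by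
                have hr2' : (2 : ℤ) ≤ r := by exact_mod_cast hr2
                nlinarith [sq_nonneg ((s : ℤ) ^ 2 - 2), mul_nonneg (sub_nonneg.2 hr2')
                  (sub_nonneg.2 hr2'), sq_nonneg ((r : ℤ) ^ 2), mul_self_nonneg ((r : ℤ) ^ 2 - 4)]
              exact_mod_cast e1
            omega
          have hm := ih _ hlt hsol
          refine mem_HH_of_sq hm ?_
          rw [ptOf_S]
          unfold DD vv
          conv_rhs => rw [← Rat.num_div_den (ptQ r s t q hr' ht' hq').S]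
          rw [div_pow, div_pow, Nat.cast_natAbs]
          push_cast
          rw [sq_abs]
      have hd := ptQ_double (r : ℚ) s t q hr' ht' hq'
      have hτ : τ1 ∈ TT := rfl
      refine mem_HH_of_sq (HH.add_mem (HH.add_mem hQ hQ)
        (HH.add_mem (HH.neg_mem P1_mem) (TT_le hτ))) ?_
      rw [hd, ptOf_S, hv, hD]
      push_cast
      rfl

end Crest.Agent.SFC
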