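import Crest.Agent.SFC.Defs

/-!
# Row 323, module II-B: case (2) of the descent, through real points
-/

set_option autoImplicit false

namespace Crest.Agent.SFC

/-- the generator `(12/41, 31/41, 49/41)` -/
def P1 : Cv ℚ := ⟨12 / 41, 31 / 41, 49 / 41, by norm_num, by norm_num⟩

/-- the point `(0, -1, 1)` -/
def τ1 : Cv ℚ := ⟨0, -1, 1, by norm_num, by norm_num⟩

/-- base change to the reals -/
noncomputable def toR (Q : Cv ℚ) : Cv ℝ :=
  ⟨Q.S, Q.c, Q.d, by exact_mod_cast congrArg (fun x : ℚ => (x : ℝ)) Q.hc,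
    by exact_mod_cast congrArg (fun x : ℚ => (x : ℝ)) Q.hd⟩

theorem toR_add (Q R : Cv ℚ) : toR (Q + R) = toR Q + toR R := by
  ext
  · show (((Q + R).S : ℚ) : ℝ) = _
    rw [Cv.add_S, Cv.add_S]
    simp only [toR]
    push_cast
    rfl
  · show (((Q + R).c : ℚ) : ℝ) = _
    rw [Cv.add_c, Cv.add_c]
    simp only [toR]
    push_cast
    rfl
  · show (((Q + R).d : ℚ) : ℝ) = _
    rw [Cv.add_d, Cv.add_d]
    simp only [toR]
    push_cast
    rfl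

theorem toR_S (Q : Cv ℚ) : (toR Q).S = (Q.S : ℝ) := rfl

section
variable {r s t q : ℝ}

/-- the real point `R` of case (2) -/
noncomputable def ptR (hr : r ≠ 0) (ht : t ^ 2 = 5 * r ^ 2 - s ^ 2)
    (hq : q ^ 2 = 5 * r ^ 2 + s ^ 2) : Cv ℝ where
  S := s / (5 * r)
  c := t * √5 / (5 * r)
  d := q * √5 / (5 * r)
  hc := by
    have h5 : (√5 : ℝ) ^ 2 = 5 := Real.sq_sqrt (by norm_num)
    rw [div_pow, mul_pow, h5, ht, div_pow]
    field_simp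
  hd := by
    have h5 : (√5 : ℝ) ^ 2 = 5 := Real.sq_sqrt (by norm_num)
    rw [div_pow, mul_pow, h5, hq, div_pow]
    field_simp

/-- the real point `R₁ = (2/5, 1/√5, 3/√5)` -/
noncomputable def ptR1 : Cv ℝ where
  S := 2 / 5
  c := √5 / 5
  d := 3 * √5 / 5
  hc := by
    have h5 : (√5 : ℝ) ^ 2 = 5 := Real.sq_sqrt (by norm_num)
    rw [div_pow, h5]
    norm_num
  hd := by
    have h5 : (√5 : ℝ) ^ 2 = 5 := Real.sq_sqrt (by norm_num)
    rw [div_pow, mul_pow, h5]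
    norm_num

theorem two_ptR1 : ptR1 + ptR1 = toR (-P1 + τ1) := by
  have h5 : (√5 : ℝ) ^ 2 = 5 := Real.sq_sqrt (by norm_num)
  ext
  · rw [toR_S, Cv.add_S, Cv.add_S]
    simp only [ptR1, P1, τ1, Cv.neg_S, Cv.neg_c, Cv.neg_d]
    push_cast
    norm_num
    field_simp
    linear_combination (300 : ℝ) * h5
  · show _ = (((-P1 + τ1).c : ℚ) : ℝ)
    rw [Cv.add_c, Cv.add_c]
    simp only [ptR1, P1, τ1, Cv.neg_S, Cv.neg_c, Cv.neg_d]
    push_cast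
    norm_num
    field_simp
    linear_combination (-775 : ℝ) * h5
  · show _ = (((-P1 + τ1).d : ℚ) : ℝ)
    rw [Cv.add_d, Cv.add_d]
    simp only [ptR1, P1, τ1, Cv.neg_S, Cv.neg_c, Cv.neg_d]
    push_cast
    norm_num
    field_simp
    linear_combination (1225 : ℝ) * h5

theorem ptR_add_ptR_S (hr : r ≠ 0) (ht : t ^ 2 = 5 * r ^ 2 - s ^ 2)
    (hq : q ^ 2 = 5 * r ^ 2 + s ^ 2) :
    (ptR hr ht hq + ptR hr ht hq).S = 2 * r * s * t * q / (25 * r ^ 4 + s ^ 4) := by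
  have h5 : (√5 : ℝ) ^ 2 = 5 := Real.sq_sqrt (by norm_num)
  have hpos : 0 < 25 * r ^ 4 + s ^ 4 := by positivity
  rw [Cv.add_S]
  simp only [ptR]
  rw [div_eq_div_iff (Cv.den_pos _ _).ne' hpos.ne']
  field_simp
  linear_combination (250 * s * t * q * r ^ 4 + 10 * s ^ 5 * t * q) * h5

theorem ptR_sub (hr : r ≠ 0) (ht : t ^ 2 = 5 * r ^ 2 - s ^ 2)
    (hq : q ^ 2 = 5 * r ^ 2 + s ^ 2) :
    (ptR hr ht hq - ptR1).S = (3 * s * r - 2 * t * q) / (25 * r ^ 2 + 4 * s ^ 2) ∧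
    (ptR hr ht hq - ptR1).c = (5 * r * t + 6 * s * q) / (25 * r ^ 2 + 4 * s ^ 2) ∧
    (ptR hr ht hq - ptR1).d = (15 * r * q - 2 * s * t) / (25 * r ^ 2 + 4 * s ^ 2) := by
  have h5 : (√5 : ℝ) ^ 2 = 5 := Real.sq_sqrt (by norm_num)
  have hpos : 0 < 25 * r ^ 2 + 4 * s ^ 2 := by positivity
  rw [sub_eq_add_neg]
  refine ⟨?_, ?_, ?_⟩
  · rw [Cv.add_S]
    simp only [ptR, ptR1, Cv.neg_S, Cv.neg_c, Cv.neg_d]
    rw [div_eq_div_iff (Cv.den_pos _ _).ne' hpos.ne']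
    field_simp
    linear_combination (375 * s * r ^ 3 - 40 * s ^ 2 * t * q + 60 * s ^ 3 * r - 250 * r ^ 2 * t * q) * h5
  · rw [Cv.add_c]
    simp only [ptR, ptR1, Cv.neg_S, Cv.neg_c, Cv.neg_d]
    rw [div_eq_div_iff (Cv.den_pos _ _).ne' hpos.ne']
    field_simp
    linear_combination (100 * t * r * s ^ 2 + 625 * t * r ^ 3 + 750 * r ^ 2 * s * q + 120 * s ^ 3 * q) * h5
  · rw [Cv.add_d]
    simp only [ptR, ptR1, Cv.neg_S, Cv.neg_c, Cv.neg_d]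
    rw [div_eq_div_iff (Cv.den_pos _ _).ne' hpos.ne']
    field_simp
    linear_combination (300 * q * r * s ^ 2 + 1875 * q * r ^ 3 - 250 * r ^ 2 * s * t - 40 * s ^ 3 * t) * h5

end

/-- the rational point `Q' = R - R₁` -/
def ptQ (r s t q : ℚ) (hr : r ≠ 0) (ht : t ^ 2 = 5 * r ^ 2 - s ^ 2)
    (hq : q ^ 2 = 5 * r ^ 2 + s ^ 2) : Cv ℚ where
  S := (3 * s * r - 2 * t * q) / (25 * r ^ 2 + 4 * s ^ 2)
  c := (5 * r * t + 6 * s * q) / (25 * r ^ 2 + 4 * s ^ 2)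
  d := (15 * r * q - 2 * s * t) / (25 * r ^ 2 + 4 * s ^ 2)
  hc := by
    have hpos : 0 < 25 * r ^ 2 + 4 * s ^ 2 := by positivity
    rw [div_pow, div_pow, eq_sub_iff_add_eq, mul_div_assoc', ← add_div, div_eq_one_iff_eq
        (pow_ne_zero 2 hpos.ne')]
    linear_combination (25 * r ^ 2 + 20 * q ^ 2) * ht +
      (36 * s ^ 2 + 20 * (5 * r ^ 2 - s ^ 2)) * hq
  hd := by
    have hpos : 0 < 25 * r ^ 2 + 4 * s ^ 2 := by positivity
    rw [div_pow, div_pow, ← sub_eq_iff_eq_add, mul_div_assoc', ← sub_div, div_eq_one_iff_eq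
        (pow_ne_zero 2 hpos.ne')]
    linear_combination (4 * s ^ 2 - 20 * q ^ 2) * ht +
      (225 * r ^ 2 - 20 * (5 * r ^ 2 - s ^ 2)) * hq

theorem ptQ_double (r s t q : ℚ) (hr : r ≠ 0) (ht : t ^ 2 = 5 * r ^ 2 - s ^ 2)
    (hq : q ^ 2 = 5 * r ^ 2 + s ^ 2) :
    (ptQ r s t q hr ht hq + ptQ r s t q hr ht hq + (-P1 + τ1)).S =
      2 * r * s * t * q / (25 * r ^ 4 + s ^ 4) := by
  have hr' : (r : ℝ) ≠ 0 := by exact_mod_cast hr
  have ht' : (t : ℝ) ^ 2 = 5 * (r : ℝ) ^ 2 - (s : ℝ) ^ 2 := by exact_mod_cast ht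
  have hq' : (q : ℝ) ^ 2 = 5 * (r : ℝ) ^ 2 + (s : ℝ) ^ 2 := by exact_mod_cast hq
  have h1 : toR (ptQ r s t q hr ht hq) = ptR hr' ht' hq' - ptR1 := by
    obtain ⟨e1, e2, e3⟩ := ptR_sub hr' ht' hq'
    ext
    · rw [e1]
      simp only [toR, ptQ]
      push_cast
      rfl
    · rw [e2]
      simp only [toR, ptQ]
      push_cast
      rfl
    · rw [e3]
      simp only [toR, ptQ]
      push_cast
      rfl
  have h2 : toR (ptQ r s t q hr ht hq + ptQ r s t q hr ht hq + (-P1 + τ1)) =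
      ptR hr' ht' hq' + ptR hr' ht' hq' := by
    rw [toR_add, toR_add, h1, ← two_ptR1]
    abel
  have h3 := congrArg Cv.S h2
  rw [ptR_add_ptR_S, toR_S] at h3
  have h4 : (((2 * r * s * t * q / (25 * r ^ 4 + s ^ 4) : ℚ)) : ℝ) =
      2 * (r : ℝ) * s * t * q / (25 * (r : ℝ) ^ 4 + (s : ℝ) ^ 4) := by
    push_cast
    rfl
  rw [← h4] at h3
  exact_mod_cast h3

end Crest.Agent.SFC
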