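import Crest.Agent.SFC.Mem

/-!
# Row 323, module II-B: the sequence of solutions (final interface)
-/

set_option autoImplicit false

namespace Crest.Agent.SFC

/-! ### heights only depend on `S²` -/

theorem DD_vv_of_sq {Q R : Cv ℚ} (h : Q.S ^ 2 = R.S ^ 2) : DD Q = DD R ∧ vv Q = vv R := by
  unfold DD vv
  rcases sq_eq_sq_iff_eq_or_eq_neg.1 h with h1 | h1
  · rw [h1]
    exact ⟨rfl, rfl⟩
  · rw [h1]
    exact ⟨by rw [Rat.num_neg_eq_neg_num, Int.natAbs_neg], by rw [Rat.den_neg_eq_den]⟩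

theorem DD_vv_of_abs {Q : Cv ℚ} {D v : ℕ} (hc : Nat.Coprime D v) (hv : 0 < v)
    (h : Q.S ^ 2 = ((D : ℚ) / v) ^ 2) : DD Q = D ∧ vv Q = v := by
  have hn : ((D : ℚ) / v).num = D ∧ ((D : ℚ) / v).den = v := by
    have h1 : ((D : ℚ) / v) = ((D : ℤ) : ℚ) / ((v : ℤ) : ℚ) := by push_cast; rfl
    rw [h1]
    have hc' : Nat.Coprime (D : ℤ).natAbs (v : ℤ).natAbs := by simpa using hc
    have hv' : (0 : ℤ) < (v : ℤ) := by exact_mod_cast hv
    constructor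
    · exact Rat.num_div_eq_of_coprime hv' hc'
    · have := Rat.den_div_eq_of_coprime hv' hc'
      exact_mod_cast this
  unfold DD vv
  rcases sq_eq_sq_iff_eq_or_eq_neg.1 h with h1 | h1
  · rw [h1, hn.1, hn.2]
    exact ⟨rfl, rfl⟩
  · rw [h1]
    refine ⟨?_, ?_⟩
    · rw [Rat.num_neg_eq_neg_num, hn.1, Int.natAbs_neg]
      rfl
    · rw [Rat.den_neg_eq_den, hn.2]

theorem S_sq_eq (Q : Cv ℚ) : Q.S ^ 2 = ((DD Q : ℚ) / vv Q) ^ 2 := by
  unfold DD vv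
  conv_lhs => rw [← Rat.num_div_den Q.S]
  rw [div_pow, div_pow, Nat.cast_natAbs]
  push_cast
  rw [sq_abs]

theorem vv_pos (Q : Cv ℚ) : 0 < vv Q := Q.S.den_pos

theorem cop (Q : Cv ℚ) : Nat.Coprime (DD Q) (vv Q) := Q.S.reduced

/-- every rational point has natural coordinates -/
theorem exists_nat (Q : Cv ℚ) : ∃ u w : ℕ, u ^ 2 + 5 * DD Q ^ 2 = vv Q ^ 2 ∧
    vv Q ^ 2 + 5 * DD Q ^ 2 = w ^ 2 := by
  obtain ⟨u, w, -, -, h1, h2, -⟩ := int_rep Q
  refine ⟨u.natAbs, w.natAbs, ?_, ?_⟩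
  · have : ((u.natAbs : ℤ)) ^ 2 + 5 * ((DD Q : ℕ) : ℤ) ^ 2 = (vv Q : ℤ) ^ 2 := by
      unfold DD
      rw [Int.natAbs_sq, Int.natAbs_sq]
      exact h1
    exact_mod_cast this
  · have : (vv Q : ℤ) ^ 2 + 5 * ((DD Q : ℕ) : ℤ) ^ 2 = ((w.natAbs : ℤ)) ^ 2 := by
      unfold DD
      rw [Int.natAbs_sq, Int.natAbs_sq]
      exact h2
    exact_mod_cast this

/-- first coordinate `u` -/
noncomputable def UU (Q : Cv ℚ) : ℕ := (exists_nat Q).choose
/-- last coordinate `w` -/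
noncomputable def WW (Q : Cv ℚ) : ℕ := (exists_nat Q).choose_spec.choose

theorem UU_WW (Q : Cv ℚ) : UU Q ^ 2 + 5 * DD Q ^ 2 = vv Q ^ 2 ∧
    vv Q ^ 2 + 5 * DD Q ^ 2 = WW Q ^ 2 := (exists_nat Q).choose_spec.choose_spec

theorem nat_sq_inj {a b : ℕ} (h : a ^ 2 = b ^ 2) : a = b :=
  Nat.pow_left_injective (n := 2) (by norm_num) h

theorem UU_WW_of {Q : Cv ℚ} {D u v w : ℕ} (h1 : u ^ 2 + 5 * D ^ 2 = v ^ 2)
    (h2 : v ^ 2 + 5 * D ^ 2 = w ^ 2) (hD : DD Q = D) (hv : vv Q = v) : UU Q = u ∧ WW Q = w := by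
  obtain ⟨k1, k2⟩ := UU_WW Q
  rw [hD, hv] at k1 k2
  exact ⟨nat_sq_inj (by omega), nat_sq_inj (by omega)⟩

/-- the coordinates of a point -/
noncomputable def crd (Q : Cv ℚ) : ℕ × ℕ × ℕ × ℕ := (DD Q, UU Q, vv Q, WW Q)

theorem crd_of {Q : Cv ℚ} {D u v w : ℕ} (h : Sol D u v w) (hS : Q.S ^ 2 = ((D : ℚ) / v) ^ 2) :
    crd Q = (D, u, v, w) := by
  obtain ⟨h1, h2⟩ := DD_vv_of_abs h.2.2.2.2.2.2 h.2.2.1 hS
  obtain ⟨h3, h4⟩ := UU_WW_of h.2.2.2.2.1 h.2.2.2.2.2.1 h1 h2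
  unfold crd
  rw [h1, h2, h3, h4]

theorem crd_of_sq {Q R : Cv ℚ} (h : Q.S ^ 2 = R.S ^ 2) : crd Q = crd R := by
  obtain ⟨h1, h2⟩ := DD_vv_of_sq h
  obtain ⟨k1, k2⟩ := UU_WW R
  obtain ⟨h3, h4⟩ := UU_WW_of k1 k2 h1 h2
  unfold crd
  rw [h1, h2, h3, h4]

theorem sol_crd {Q : Cv ℚ} (h : Q.S ≠ 0) : Sol (DD Q) (UU Q) (vv Q) (WW Q) := by
  obtain ⟨u, w, hs, -, -⟩ := sol_of h
  obtain ⟨h3, h4⟩ := UU_WW_of hs.2.2.2.2.1 hs.2.2.2.2.2.1 rfl rfl
  rw [h3, h4]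
  exact hs

/-! ### the sequence -/

/-- the sequence `|n P₁|` -/
noncomputable def qs (n : ℕ) : ℕ × ℕ × ℕ × ℕ := crd (n • P1)

/-- `v_n` -/
noncomputable def vs (n : ℕ) : ℕ := vv (n • P1)

theorem vv_P1 : vv P1 = 41 ∧ DD P1 = 12 := by
  have h : P1.S = ((12 : ℤ) : ℚ) / ((41 : ℤ) : ℚ) := by
    show (12 / 41 : ℚ) = _
    norm_num
  have hc : Nat.Coprime (12 : ℤ).natAbs (41 : ℤ).natAbs := by decide
  unfold vv DD
  rw [h]
  refine ⟨?_, ?_⟩
  · have := Rat.den_div_eq_of_coprime (a := 12) (b := 41) (by norm_num) hc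
    exact_mod_cast this
  · rw [Rat.num_div_eq_of_coprime (a := 12) (b := 41) (by norm_num) hc]
    rfl

theorem vs_zero : vs 0 = 1 := by
  unfold vs vv
  rw [zero_smul]
  rfl

theorem vs_one : vs 1 = 41 := by
  unfold vs
  rw [one_smul]
  exact vv_P1.1

theorem Z_le (Q R : Cv ℚ) :
    vv Q ^ 2 * vv R ^ 2 + 25 * DD Q ^ 2 * DD R ^ 2 ≤ 2 * (vv Q ^ 2 * vv R ^ 2) := by
  have h1 := Nat.mul_le_mul (five_DD_le Q) (five_DD_le R)
  nlinarith

theorem vs_upper (n : ℕ) : vs (n + 2) * vs n ≤ 2 * 1681 * vs (n + 1) ^ 2 := by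
  have h := vv_add_mul_sub ((n + 1) • P1) P1
  have e1 : (n + 1) • P1 + P1 = (n + 2) • P1 := by
    rw [← succ_nsmul]
  have e2 : (n + 1) • P1 - P1 = n • P1 := by
    rw [succ_nsmul]
    abel
  rw [e1, e2] at h
  have h2 := Nat.le_of_dvd (by have := vv_pos ((n + 1) • P1); have := vv_pos P1; positivity) h
  have h3 := h2.trans (Z_le _ _)
  rw [vv_P1.1] at h3
  unfold vs
  linarith

theorem vs_lower (n : ℕ) : 41 ^ 4 * vs (n + 1) ^ 4 ≤ 2 * (vs (n + 2) ^ 2 * vs n ^ 2) := by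
  have h := vv_add_mul_sub ((n + 2) • P1) (n • P1)
  have e1 : (n + 2) • P1 + n • P1 = (n + 1) • P1 + (n + 1) • P1 := by
    rw [← add_smul, ← add_smul]
    congr 1
    ring
  have e2 : (n + 2) • P1 - n • P1 = P1 + P1 := by
    rw [add_smul, two_smul]
    abel
  rw [e1, e2] at h
  have h2 := Nat.le_of_dvd (by
    have := vv_pos ((n + 2) • P1)
    have := vv_pos (n • P1)
    positivity) h
  have h3 := h2.trans (Z_le _ _)
  rw [vv_double, vv_double, vv_P1.1, vv_P1.2] at h3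
  unfold vs
  refine le_trans ?_ h3
  have h4 : vv ((n + 1) • P1) ^ 4 ≤ vv ((n + 1) • P1) ^ 4 + 25 * DD ((n + 1) • P1) ^ 4 :=
    Nat.le_add_right _ _
  have h5 : 41 ^ 4 ≤ 41 ^ 4 + 25 * 12 ^ 4 := by norm_num
  rw [mul_comm (41 ^ 4)]
  exact Nat.mul_le_mul h4 h5

theorem vs_succ (n : ℕ) : vs n < vs (n + 1) := by
  induction n with
  | zero => rw [vs_zero, vs_one]; norm_num
  | succ n ih =>
    have h := vs_lower n
    by_contra hcon
    have hcon' : vs (n + 2) ≤ vs (n + 1) := not_lt.1 hcon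
    have hp : 0 < vs (n + 1) := vv_pos _
    have h1 : vs (n + 2) ^ 2 * vs n ^ 2 ≤ vs (n + 1) ^ 2 * vs (n + 1) ^ 2 :=
      Nat.mul_le_mul (Nat.pow_le_pow_left hcon' 2) (Nat.pow_le_pow_left ih.le 2)
    have h2 : vs (n + 1) ^ 2 * vs (n + 1) ^ 2 = vs (n + 1) ^ 4 := by ring
    have h3 : 0 < vs (n + 1) ^ 4 := by positivity
    omega

theorem vs_strictMono : StrictMono vs := strictMono_nat_of_lt_succ vs_succ

theorem nP_S_ne {n : ℕ} (hn : 1 ≤ n) : (n • P1).S ≠ 0 := by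
  intro h
  have h1 : vs 0 < vs n := vs_strictMono hn
  have h2 : vs n = 1 := by
    unfold vs vv
    rw [h]
    rfl
  rw [vs_zero, h2] at h1
  omega

theorem sol_qs {n : ℕ} (hn : 1 ≤ n) :
    Sol (qs n).1 (qs n).2.1 (qs n).2.2.1 (qs n).2.2.2 := sol_crd (nP_S_ne hn)

theorem sq_int (n : ℤ) : (n • P1).S ^ 2 = (n.natAbs • P1).S ^ 2 := by
  rcases Int.natAbs_eq n with h | h
  · conv_lhs => rw [h]
    rw [natCast_zsmul]
  · conv_lhs => rw [h]
    rw [neg_smul, natCast_zsmul, sq_neg]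

theorem exhaust {D u v w : ℕ} (h : Sol D u v w) : ∃ n, 1 ≤ n ∧ qs n = (D, u, v, w) := by
  obtain ⟨n, t, ht, e⟩ := mem_HH (ptOf_mem v h)
  have h1 : (ptOf h).S ^ 2 = (n.natAbs • P1).S ^ 2 := by
    rw [e, sq_add_TT _ ht, sq_int]
  have h2 : (n.natAbs • P1).S ^ 2 = ((D : ℚ) / v) ^ 2 := by rw [← h1, ptOf_S]
  refine ⟨n.natAbs, ?_, crd_of h h2⟩
  by_contra hcon
  have h0 : n.natAbs = 0 := by omega
  rw [h0, zero_smul] at h2
  have hD : (D : ℚ) ≠ 0 := by exact_mod_cast h.1.ne'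
  have hv : (v : ℚ) ≠ 0 := by exact_mod_cast h.2.2.1.ne'
  have h3 : (0 : ℚ) < ((D : ℚ) / v) ^ 2 := by positivity
  rw [← h2] at h3
  simp at h3

/-- the successor relation -/
def Next (D u v w D' u' v' w' : ℕ) : Prop :=
  Sol D u v w ∧ Sol D' u' v' w' ∧ v < v' ∧
    ((D' : ℤ) * (1681 * v ^ 2 + 3600 * D ^ 2) = v' * (1519 * D * v + 492 * u * w) ∨
     (D' : ℤ) * (1681 * v ^ 2 + 3600 * D ^ 2) = v' * (1519 * D * v - 492 * u * w) ∨
     (D' : ℤ) * (1681 * v ^ 2 + 3600 * D ^ 2) = v' * (492 * u * w - 1519 * D * v))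

theorem S_add_P1 {D u v w : ℕ} (h : Sol D u v w) :
    (ptOf h + P1).S = (1519 * D * v + 492 * u * w) / (1681 * v ^ 2 + 3600 * D ^ 2) ∧
    (ptOf h - P1).S = (1519 * D * v - 492 * u * w) / (1681 * v ^ 2 + 3600 * D ^ 2) := by
  have hv : (v : ℚ) ≠ 0 := by exact_mod_cast h.2.2.1.ne'
  have hZ : (1681 * (v : ℚ) ^ 2 + 3600 * (D : ℚ) ^ 2) ≠ 0 := by positivity
  constructor
  · rw [Cv.add_S]
    show ((D : ℚ) / v * (31 / 41) * (49 / 41) + 12 / 41 * (u / v) * (w / v)) /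
      (1 + 25 * (D / v) ^ 2 * (12 / 41) ^ 2) = _
    rw [div_eq_div_iff (Cv.den_pos _ _).ne' hZ]
    field_simp
    ring
  · rw [sub_eq_add_neg, Cv.add_S]
    show ((D : ℚ) / v * (31 / 41) * (49 / 41) + -(12 / 41) * (u / v) * (w / v)) /
      (1 + 25 * (D / v) ^ 2 * (-(12 / 41)) ^ 2) = _
    have e : (-(12 / 41 : ℚ)) ^ 2 = (12 / 41) ^ 2 := by norm_num
    rw [e, div_eq_div_iff (Cv.den_pos _ _).ne' hZ]
    field_simp
    ring

/-- the two neighbours -/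
theorem nbr {n : ℕ} (hn : 1 ≤ n) {D u v w : ℕ} (h : Sol D u v w) (e : qs n = (D, u, v, w)) :
    ((ptOf h + P1).S ^ 2 = ((n + 1) • P1).S ^ 2 ∧ (ptOf h - P1).S ^ 2 = ((n - 1) • P1).S ^ 2) ∨
    ((ptOf h + P1).S ^ 2 = ((n - 1) • P1).S ^ 2 ∧ (ptOf h - P1).S ^ 2 = ((n + 1) • P1).S ^ 2) := by
  obtain ⟨m, rfl⟩ : ∃ m, n = m + 1 := ⟨n - 1, by omega⟩
  have e1 : DD ((m + 1) • P1) = D := congrArg (fun x => x.1) e
  have e2 : vv ((m + 1) • P1) = v := congrArg (fun x => x.2.2.1) e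
  have hS : ((m + 1) • P1).S ^ 2 = (ptOf h).S ^ 2 := by
    rw [S_sq_eq, e1, e2, ptOf_S]
  have a1 : (m + 1) • P1 + P1 = (m + 1 + 1) • P1 := by rw [← succ_nsmul]
  have a2 : (m + 1) • P1 - P1 = (m + 1 - 1) • P1 := by
    rw [succ_nsmul, Nat.add_sub_cancel]
    abel
  obtain ⟨t, ht, h1 | h1⟩ := eq_of_sq hS
  · left
    constructor
    · rw [h1, show (m + 1) • P1 + t + P1 = (m + 1) • P1 + P1 + t by abel, sq_add_TT _ ht, a1]
    · rw [h1, show (m + 1) • P1 + t - P1 = (m + 1) • P1 - P1 + t by abel, sq_add_TT _ ht, a2]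
  · right
    constructor
    · rw [h1, show -((m + 1) • P1) + t + P1 = -((m + 1) • P1 - P1) + t by abel, sq_add_TT _ ht,
        sq_neg, a2]
    · rw [h1, show -((m + 1) • P1) + t - P1 = -((m + 1) • P1 + P1) + t by abel, sq_add_TT _ ht,
        sq_neg, a1]

theorem next_iff {n : ℕ} (hn : 1 ≤ n) (D' u' v' w' : ℕ) :
    Next (qs n).1 (qs n).2.1 (qs n).2.2.1 (qs n).2.2.2 D' u' v' w' ↔
      (D', u', v', w') = qs (n + 1) := by
  have h := sol_qs hn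
  have hZ : (0 : ℚ) < 1681 * ((qs n).2.2.1 : ℚ) ^ 2 + 3600 * ((qs n).1 : ℚ) ^ 2 := by
    have : (0 : ℚ) < (qs n).2.2.1 := by exact_mod_cast h.2.2.1
    positivity
  obtain ⟨eS1, eS2⟩ := S_add_P1 h
  have hnb := nbr hn h rfl
  constructor
  · rintro ⟨-, hs, hlt, h3⟩
    have hv' : (0 : ℚ) < v' := by exact_mod_cast hs.2.2.1
    have key : (ptOf h + P1).S ^ 2 = ((D' : ℚ) / v') ^ 2 ∨
        (ptOf h - P1).S ^ 2 = ((D' : ℚ) / v') ^ 2 := by
      rcases h3 with h3 | h3 | h3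
      · left
        have h3' := congrArg (fun x : ℤ => (x : ℚ)) h3
        push_cast at h3'
        rw [eS1]
        congr 1
        rw [div_eq_div_iff hZ.ne' hv'.ne']
        linarith
      · right
        have h3' := congrArg (fun x : ℤ => (x : ℚ)) h3
        push_cast at h3'
        rw [eS2]
        congr 1
        rw [div_eq_div_iff hZ.ne' hv'.ne']
        linarith
      · right
        have h3' := congrArg (fun x : ℤ => (x : ℚ)) h3
        push_cast at h3'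
        rw [eS2, ← neg_sq ((D' : ℚ) / v')]
        congr 1
        rw [← neg_div, div_eq_div_iff hZ.ne' hv'.ne']
        linarith
    have key2 : ((n + 1) • P1).S ^ 2 = ((D' : ℚ) / v') ^ 2 ∨
        ((n - 1) • P1).S ^ 2 = ((D' : ℚ) / v') ^ 2 := by
      rcases hnb with ⟨h4, h5⟩ | ⟨h4, h5⟩ <;> rcases key with h6 | h6
      · left; rw [← h4, h6]
      · right; rw [← h5, h6]
      · right; rw [← h4, h6]
      · left; rw [← h5, h6]
    rcases key2 with h6 | h6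
    · exact (crd_of hs h6).symm
    · exfalso
      have h7 := crd_of hs h6
      have h8 : vs (n - 1) = v' := congrArg (fun x => x.2.2.1) h7
      have h9 : vs (n - 1) < vs n := vs_strictMono (by omega)
      have h10 : (qs n).2.2.1 = vs n := rfl
      omega
  · intro e
    have hs1 := sol_qs (n := n + 1) (by omega)
    rw [← e] at hs1
    have hlt : vs n < vs (n + 1) := vs_succ n
    have hvv : vs (n + 1) = v' := (congrArg (fun x => x.2.2.1) e).symm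
    have hDD : DD ((n + 1) • P1) = D' := (congrArg (fun x => x.1) e).symm
    refine ⟨h, hs1, ?_, ?_⟩
    · show vs n < v'
      omega
    · have hv' : (0 : ℚ) < v' := by exact_mod_cast hs1.2.2.1
      have hS : ((n + 1) • P1).S ^ 2 = ((D' : ℚ) / v') ^ 2 := by
        have hvv2 : vv ((n + 1) • P1) = v' := hvv
        rw [S_sq_eq, hDD, hvv2]
      have hpos : (0 : ℚ) < 1519 * (qs n).1 * (qs n).2.2.1 +
          492 * (qs n).2.1 * (qs n).2.2.2 := by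
        obtain ⟨k1, k2, k3, k4, -⟩ := h
        have k1' : (0 : ℚ) < (qs n).1 := by exact_mod_cast k1
        have k2' : (0 : ℚ) < (qs n).2.1 := by exact_mod_cast k2
        have k3' : (0 : ℚ) < (qs n).2.2.1 := by exact_mod_cast k3
        have k4' : (0 : ℚ) < (qs n).2.2.2 := by exact_mod_cast k4
        positivity
      rcases hnb with ⟨h4, -⟩ | ⟨-, h5⟩
      · left
        rw [hS, eS1] at h4
        rcases sq_eq_sq_iff_eq_or_eq_neg.1 h4 with h6 | h6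
        · rw [div_eq_div_iff hZ.ne' hv'.ne'] at h6
          have : ((D' : ℚ)) * (1681 * ((qs n).2.2.1 : ℚ) ^ 2 + 3600 * ((qs n).1 : ℚ) ^ 2) =
              v' * (1519 * (qs n).1 * (qs n).2.2.1 + 492 * (qs n).2.1 * (qs n).2.2.2) := by
            linarith
          exact_mod_cast this
        · exfalso
          have h7 : 0 < (1519 * ((qs n).1 : ℚ) * (qs n).2.2.1 +
              492 * (qs n).2.1 * (qs n).2.2.2) /
              (1681 * ((qs n).2.2.1 : ℚ) ^ 2 + 3600 * ((qs n).1 : ℚ) ^ 2) := div_pos hpos hZ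
          have h8 : 0 ≤ (D' : ℚ) / v' := by positivity
          rw [h6] at h7
          linarith
      · right
        rw [hS, eS2] at h5
        rcases sq_eq_sq_iff_eq_or_eq_neg.1 h5 with h6 | h6
        · left
          rw [div_eq_div_iff hZ.ne' hv'.ne'] at h6
          have : ((D' : ℚ)) * (1681 * ((qs n).2.2.1 : ℚ) ^ 2 + 3600 * ((qs n).1 : ℚ) ^ 2) =
              v' * (1519 * (qs n).1 * (qs n).2.2.1 - 492 * (qs n).2.1 * (qs n).2.2.2) := by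
            linarith
          exact_mod_cast this
        · right
          rw [← neg_div, div_eq_div_iff hZ.ne' hv'.ne'] at h6
          have : ((D' : ℚ)) * (1681 * ((qs n).2.2.1 : ℚ) ^ 2 + 3600 * ((qs n).1 : ℚ) ^ 2) =
              v' * (492 * (qs n).2.1 * (qs n).2.2.2 - 1519 * (qs n).1 * (qs n).2.2.1) := by
            linarith
          exact_mod_cast this

/-- FINAL INTERFACE OF MODULE II-B. -/
theorem exists_seq : ∃ q : ℕ → ℕ × ℕ × ℕ × ℕ,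
    q 0 = (0, 1, 1, 1) ∧ q 1 = (12, 31, 41, 49) ∧
    (∀ n, 1 ≤ n → Sol (q n).1 (q n).2.1 (q n).2.2.1 (q n).2.2.2) ∧
    (∀ D u v w, Sol D u v w → ∃ n, 1 ≤ n ∧ q n = (D, u, v, w)) ∧
    StrictMono (fun n => (q n).2.2.1) ∧
    (∀ n, 1 ≤ n → ∀ D' u' v' w',
      Next (q n).1 (q n).2.1 (q n).2.2.1 (q n).2.2.2 D' u' v' w' ↔
        (D', u', v', w') = q (n + 1)) ∧
    (∀ n, (q (n + 2)).2.2.1 * (q n).2.2.1 ≤ 2 * 1681 * (q (n + 1)).2.2.1 ^ 2) ∧
    (∀ n, 41 ^ 4 * (q (n + 1)).2.2.1 ^ 4 ≤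
      2 * ((q (n + 2)).2.2.1 ^ 2 * (q n).2.2.1 ^ 2)) := by
  refine ⟨qs, ?_, ?_, fun n hn => sol_qs hn, fun D u v w h => exhaust h, vs_strictMono,
    fun n hn D' u' v' w' => next_iff hn D' u' v' w', vs_upper, vs_lower⟩
  · have h1 : DD (0 • P1) = 0 := by
      unfold DD
      rw [zero_smul]
      rfl
    have h2 : vv (0 • P1) = 1 := vs_zero
    obtain ⟨h3, h4⟩ := UU_WW_of (Q := 0 • P1) (D := 0) (u := 1) (v := 1) (w := 1) (by norm_num)
      (by norm_num) h1 h2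
    show (DD (0 • P1), UU (0 • P1), vv (0 • P1), WW (0 • P1)) = _
    rw [h1, h2, h3, h4]
  · have h1 : DD (1 • P1) = 12 := by rw [one_smul]; exact vv_P1.2
    have h2 : vv (1 • P1) = 41 := vs_one
    obtain ⟨h3, h4⟩ := UU_WW_of (Q := 1 • P1) (D := 12) (u := 31) (v := 41) (w := 49)
      (by norm_num) (by norm_num) h1 h2
    show (DD (1 • P1), UU (1 • P1), vv (1 • P1), WW (1 • P1)) = _
    rw [h1, h2, h3, h4]

end Crest.Agent.SFC
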